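import Vale.Agent.P032.Words6.H306.SixLoc
import Vale.Agent.P032.Words6.H229.Act

/-!
# P032: there is no clean point of six colours each of which is in a pair of the unit circle, local
form
-/

noncomputable section

namespace Vale.Agent.P032.Words6.H306

open Vale.Agent.P032.Words6.H358

/-- **Six colours, local form.** -/
theorem no_six_active_loc : S5.H306.NoSixALoc :=
  no_six_loc_of (H122.map_LC ▸ H122.all35_of tree22 tree28 tree30 tree32 tree33 tree34
    H229.tree35)

end Vale.Agent.P032.Words6.H306
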