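import Vale.Agent.P032.Words6.H229.Comp
import Vale.Agent.P032.S5.H306.Disc6

/-!
# P032: six colours from the mode trees, local form
-/

open Set Filter Topology Metric

noncomputable section

namespace Vale.Agent.P032.Words6.H306

open Vale.Agent.P032.Six Vale.Agent.P032.S5.H767 Vale.Agent.P032.Words6.H704
  Vale.Agent.P032.Words6.H46 Vale.Agent.P032.Words6.H343 Vale.Agent.P032.Words6.H503
  Vale.Agent.P032.Words.Trie

/-- the complement rule, local form -/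
theorem rs_loc {U : Fin 6 → Set ℂ} {T : ℂ → Set (Fin 6)} {z : ℂ} (h : Irr U T)
    (hmin : ∀ z, 4 ≤ (T z).ncard → ∀ s, s ⊆ T z → s ≠ T z →
      ¬ ∀ᶠ w in 𝓝 z, ∃ i ∈ s, w ∈ U i ∨ (w ∈ XX U ∧ i ∈ Pal U w))
    (h6 : (T z).ncard = 6) (h5 : ∀ w, dist w z ≤ 2 → (T w).ncard ≠ 5)
    (hD : ∀ w, dist w z ≤ 2 → (∃ a b c d, DPt T w a b c d) → ∀ y, dist y w = 1 → (T y).ncard ≤ 3)
    (X : Set (Fin 6)) (hX : X.ncard = 3) : RS T z X := by
  intro v q hv hq hTv hTq
  by_contra hne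
  have hz : T z = univ := by
    refine Set.eq_of_subset_of_ncard_le (subset_univ _) ?_ (Set.toFinite _)
    rw [Set.ncard_univ, Nat.card_eq_fintype_card, Fintype.card_fin, h6]
  exact S5.H410.r_strong_loc h hmin hz hD h5
    (⟨hX, by rw [dist_comm]; exact hv, by rw [dist_comm]; exact hq, hTv, hTq, hne⟩ :
      S5.H450.Nd T X z v q)

/-- **Six colours, local form.** -/
theorem no_six_loc_of (htab : ∀ L ∈ H122.Lets35, H358.TreeOK L) : S5.H306.NoSixALoc := by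
  intro U T h hmin z h6 hcl h5 hD hact
  obtain ⟨C, hs, hi, ha, hdeg, hcut⟩ := start h hmin h6 hcl hact
  obtain ⟨L, hL, f, hf, hf6, hM⟩ := H122.classify35 hs hi ha hdeg hcut
  have S := hl_sel (M := MC T z) C fun v hv => C.hd hmin (H229.mem_dats hL) hf hf6 hM hv
  obtain ⟨μ, hμ⟩ := H358.exists_mu (rs_loc h hmin h6 h5 hD) hf hf6
  obtain ⟨ls, h1, h2⟩ := htab L hL
  obtain ⟨l, hl, h3⟩ := h1 μ
  obtain ⟨D, hB, hok, hokL, rfl⟩ := h2 l hl
  refine H571.leaf_core C hact S (fun v h hv => hl_leg v h hv) (fun v h hv => hl_rot hv) hB hok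
    (E := ⟨hf, hf6, hM⟩) (H229.okL_bridge hok hokL) fun p hp => ?_
  have h4 := hμ p.1
  rw [h3 p hp] at h4
  exact h4

end Vale.Agent.P032.Words6.H306
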